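import Vale.Agent.P079.Super

open Vale.Agent.P079

universe u v

theorem Vale.Agent.Results.P079.Super.result (X : Type u) [NormedAddCommGroup X] [NormedSpace ℝ X]
    [CompleteSpace X] (Y : Type v) [NormedAddCommGroup Y] [NormedSpace ℝ Y] [CompleteSpace Y]
    (e : X ≃L[ℝ] Y) (h : UniformConvexSpace Y ∨ (Reflexive X ∧ AUS Y)) : FPP X := by
  rcases h with h | ⟨h1, h2⟩
  · exact fpp_of_uc e
  · exact fpp_of_aus h1 h2 e
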